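import Vale.Agent.P315.Main

/-! A randomized `(1 + ε)`-approximation of edit distance in time `n ^ (1 + o(1))`. -/

open Vale.Agent.P315

theorem Vale.Agent.Results.P315.NearLinear.result :
    ∀ ε : ℝ, 0 < ε → ∃ P : Stmt, ∀ σ : ℕ, ∃ c : ℕ, ∀ ξ : ℝ, 0 < ξ → ∃ C : ℝ,
      ∀ (n w : ℕ) (x y : List ℕ), c * (Nat.log 2 (n + 2) + 1) ≤ w →
        x.length ≤ n → y.length ≤ n →
        (∀ a ∈ x, a < (n + 2) ^ σ) → (∀ a ∈ y, a < (n + 2) ^ σ) →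
        ∃ T : ℕ, (T : ℝ) ≤ C * ((n : ℝ) + 2) ^ (1 + ξ) ∧
          (∀ ω : Fin T → Bool, (run w P x y ω).1 = []) ∧
          (2 / 3 : ℝ) * 2 ^ T ≤ (Set.ncard {ω : Fin T → Bool |
            ED x y ≤ output (run w P x y ω) ∧
            (output (run w P x y ω) : ℝ) ≤ (1 + ε) * ED x y} : ℝ) :=
  main
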